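import Vale.Agent.P076.R2.H831V.Spec2

/-!
# P076 : anisotropic Sobolev spaces (row Z1)
-/

open MeasureTheory Complex FourierTransform Filter Topology Set
open scoped ENNReal NNReal

namespace Vale.Agent.P076.R2.H43

open Vale.Agent.P076 Vale.Agent.P076.H791 Vale.Agent.P076.R2 Vale.Agent.P076.R2.H45
open Vale.Agent.P076.R2.H831 Vale.Agent.P076.R2.H831V

section

variable {n : ℕ}

theorem nrm_sq (ξ : Fin n → ℝ) : nrm ξ ^ 2 = ∑ i, ξ i ^ 2 :=
  Real.sq_sqrt (Finset.sum_nonneg fun _ _ => sq_nonneg _)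

theorem nrm_nonneg' (ξ : Fin n → ℝ) : 0 ≤ nrm ξ := Real.sqrt_nonneg _

theorem pyth_aux (ξ e : Fin n → ℝ) (s : ℝ) : nrm (ξ - s • e) ^ 2 =
    ∑ i, ξ i ^ 2 - 2 * s * (∑ i, ξ i * e i) + s ^ 2 * ∑ i, e i ^ 2 := by
  have h3 : ∀ i, (ξ - s • e) i ^ 2 = ξ i ^ 2 - 2 * s * (ξ i * e i) + s ^ 2 * e i ^ 2 := by
    intro i
    simp only [Pi.sub_apply, Pi.smul_apply, smul_eq_mul]
    ring
  rw [nrm_sq, Finset.sum_congr rfl fun i _ => h3 i, Finset.sum_add_distrib,
    Finset.sum_sub_distrib, ← Finset.mul_sum, ← Finset.mul_sum]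

theorem pyth {e : Fin n → ℝ} (he : nrm e = 1) (ξ : Fin n → ℝ) :
    nrm ξ ^ 2 = (∑ i, ξ i * e i) ^ 2 + nrm (ξ - (∑ i, ξ i * e i) • e) ^ 2 := by
  have h1 : ∑ i, e i ^ 2 = 1 := by rw [← nrm_sq, he, one_pow]
  rw [pyth_aux, h1, nrm_sq]
  ring

/-- the radial weight -/
noncomputable def VV (ε : ℝ) (r : ℝ) : ℝ≥0∞ :=
  ENNReal.ofReal ((8 : ℝ) ^ (1 + ε)) * ENNReal.ofReal ((1 + ‖r‖) ^ (-(1 + ε)))

theorem le_VV {ε : ℝ} (_hε : 0 < ε) {r a : ℝ} (hr : 0 ≤ r) (ha : a * (1 + r) ^ (1 + ε) ≤ 8 ^ (1 + ε)) :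
    ENNReal.ofReal a ≤ VV ε r := by
  unfold VV
  rw [← ENNReal.ofReal_mul (by positivity)]
  refine ENNReal.ofReal_le_ofReal ?_
  rw [Real.norm_eq_abs, abs_of_nonneg hr, Real.rpow_neg (by positivity), ← div_eq_mul_inv,
    le_div_iff₀ (by positivity)]
  exact ha

/-- the numbers of the tubes -/
noncomputable def th (ε : ℝ) (k j : ℕ) : ℝ :=
  min ((2 : ℝ) ^ (-(((k : ℝ) - 1) * (1 / 2 + ε)))) ((2 : ℝ) ^ (-(((j : ℝ) - 1) * (1 + ε))))

theorem th_nonneg (ε : ℝ) (k j : ℕ) : 0 ≤ th ε k j := by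
  unfold th
  positivity

theorem th_mul {ε : ℝ} (hε : 0 < ε) (k j : ℕ) :
    th ε k j * max ((2 : ℝ) ^ j) ((2 : ℝ) ^ ((k : ℝ) / 2)) ≤
      (2 : ℝ) ^ (1 + ε) * ((2 : ℝ) ^ (-(ε / 2))) ^ k := by
  have h2 : (2 : ℝ) ^ (1 + ε) * ((2 : ℝ) ^ (-(ε / 2))) ^ k =
      (2 : ℝ) ^ (1 + ε - k * (ε / 2)) := by
    rw [← Real.rpow_natCast, ← Real.rpow_mul (by norm_num), ← Real.rpow_add (by norm_num)]
    congr 1
    ring
  rw [h2]
  have hk : (0 : ℝ) ≤ k := Nat.cast_nonneg k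
  have hj : (0 : ℝ) ≤ j := Nat.cast_nonneg j
  rcases le_total ((j : ℝ)) ((k : ℝ) / 2) with hjk | hjk
  · have h3 : (2 : ℝ) ^ j ≤ (2 : ℝ) ^ ((k : ℝ) / 2) := by
      rw [← Real.rpow_natCast]
      exact Real.rpow_le_rpow_of_exponent_le (by norm_num) hjk
    rw [max_eq_right h3]
    calc th ε k j * (2 : ℝ) ^ ((k : ℝ) / 2)
        ≤ (2 : ℝ) ^ (-(((k : ℝ) - 1) * (1 / 2 + ε))) * (2 : ℝ) ^ ((k : ℝ) / 2) :=
          mul_le_mul_of_nonneg_right (min_le_left _ _) (by positivity)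
      _ = (2 : ℝ) ^ (-(((k : ℝ) - 1) * (1 / 2 + ε)) + (k : ℝ) / 2) := by
          rw [← Real.rpow_add (by norm_num)]
      _ ≤ _ := by
          refine Real.rpow_le_rpow_of_exponent_le (by norm_num) ?_
          nlinarith [mul_nonneg hk hε.le]
  · have h3 : (2 : ℝ) ^ ((k : ℝ) / 2) ≤ (2 : ℝ) ^ j := by
      rw [← Real.rpow_natCast]
      exact Real.rpow_le_rpow_of_exponent_le (by norm_num) hjk
    rw [max_eq_left h3]
    calc th ε k j * (2 : ℝ) ^ j
        ≤ (2 : ℝ) ^ (-(((j : ℝ) - 1) * (1 + ε))) * (2 : ℝ) ^ j :=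
          mul_le_mul_of_nonneg_right (min_le_right _ _) (by positivity)
      _ = (2 : ℝ) ^ (-(((j : ℝ) - 1) * (1 + ε)) + (j : ℝ)) := by
          rw [Real.rpow_add (by norm_num), Real.rpow_natCast]
      _ ≤ _ := by
          refine Real.rpow_le_rpow_of_exponent_le (by norm_num) ?_
          nlinarith [mul_le_mul_of_nonneg_right hjk hε.le]

/-- the tubes -/
noncomputable def TT (e : Fin n → ℝ) (ε : ℝ) (k : ℕ) : Finset ((Fin n → ℝ) × ℝ × ℝ) :=
  by classical exact (Finset.range k).image fun j => (e, (2 : ℝ) ^ j, th ε k j)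

theorem mem_TT {e : Fin n → ℝ} {ε : ℝ} {k : ℕ} {p : (Fin n → ℝ) × ℝ × ℝ} :
    p ∈ TT e ε k ↔ ∃ j < k, (e, (2 : ℝ) ^ j, th ε k j) = p := by
  simp [TT]

theorem summ {e : Fin n → ℝ} {ε : ℝ} (hε : 0 < ε) : Summable fun k : ℕ => √((k : ℝ) + 1) *
      ∑ p ∈ TT e ε k, p.2.2 * max p.2.1 ((2 : ℝ) ^ ((k : ℝ) / 2)) := by
  classical
  set r : ℝ := (2 : ℝ) ^ (-(ε / 2)) with hr
  have hr0 : 0 < r := by positivity
  have hr1 : r < 1 := Real.rpow_lt_one_of_one_lt_of_neg (by norm_num) (by linarith)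
  have hs : Summable fun k : ℕ => (k : ℝ) ^ 2 * r ^ k :=
    summable_pow_mul_geometric_of_norm_lt_one 2 (by rwa [Real.norm_eq_abs, abs_of_pos hr0])
  have hsum : ∀ k, ∑ p ∈ TT e ε k, p.2.2 * max p.2.1 ((2 : ℝ) ^ ((k : ℝ) / 2)) =
      ∑ j ∈ Finset.range k, th ε k j * max ((2 : ℝ) ^ j) ((2 : ℝ) ^ ((k : ℝ) / 2)) := by
    intro k
    unfold TT
    rw [Finset.sum_image]
    intro i _ j _ hij
    have h1 : (2 : ℝ) ^ i = (2 : ℝ) ^ j := congrArg (fun q => q.2.1) hij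
    exact pow_right_injective₀ (by norm_num) (by norm_num) h1
  refine Summable.of_nonneg_of_le (fun k => ?_) (fun k => ?_)
    (hs.mul_left (2 * (2 : ℝ) ^ (1 + ε)))
  · rw [hsum]
    refine mul_nonneg (Real.sqrt_nonneg _) (Finset.sum_nonneg fun j _ => ?_)
    exact mul_nonneg (th_nonneg _ _ _) (le_max_of_le_left (by positivity))
  · rw [hsum]
    have h1 : ∑ j ∈ Finset.range k, th ε k j * max ((2 : ℝ) ^ j) ((2 : ℝ) ^ ((k : ℝ) / 2)) ≤
        k * ((2 : ℝ) ^ (1 + ε) * r ^ k) := by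
      refine (Finset.sum_le_card_nsmul _ _ _ fun j _ => th_mul hε k j).trans ?_
      rw [Finset.card_range, nsmul_eq_mul]
    have h2 : √((k : ℝ) + 1) ≤ (k : ℝ) + 1 := by
      rw [Real.sqrt_le_left (by positivity)]
      nlinarith [Nat.cast_nonneg (α := ℝ) k]
    rcases Nat.eq_zero_or_pos k with hk | hk
    · subst hk
      simp
    · have hk1 : (1 : ℝ) ≤ k := by exact_mod_cast hk
      calc √((k : ℝ) + 1) * _ ≤ ((k : ℝ) + 1) * (k * ((2 : ℝ) ^ (1 + ε) * r ^ k)) :=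
            mul_le_mul h2 h1 (Finset.sum_nonneg fun j _ =>
              mul_nonneg (th_nonneg _ _ _) (le_max_of_le_left (by positivity))) (by positivity)
        _ ≤ (2 * k) * (k * ((2 : ℝ) ^ (1 + ε) * r ^ k)) :=
            mul_le_mul_of_nonneg_right (by linarith) (by positivity)
        _ = 2 * (2 : ℝ) ^ (1 + ε) * ((k : ℝ) ^ 2 * r ^ k) := by ring

end

theorem stAni {n : ℕ} (hn : 1 ≤ n) (h : StWt n) : StAni n := by
  intro e ε he hε
  have hdot : Measurable fun ξ : Fin n → ℝ => ∑ i, ξ i * e i := by fun_prop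
  have hnrm : Measurable fun ξ : Fin n → ℝ => nrm ξ := by
    unfold nrm
    fun_prop
  have hnrm' : Measurable fun ξ : Fin n → ℝ => nrm (ξ - (∑ i, ξ i * e i) • e) :=
    hnrm.comp (by fun_prop)
  have hVm : Measurable (VV ε) := by
    unfold VV
    fun_prop
  refine h _ (fun ξ => VV ε (nrm ξ)) (fun ρ => VV ε ρ * ENNReal.ofReal (cC n)) 1 (TT e ε)
    (fun _ p _ => ENNReal.ofReal p.2.2) ?_ ?_ (hVm.comp hnrm) (hVm.mul_const _) ?_ one_pos ?_
    ⟨?_, summ hε⟩ ?_
  · exact ENNReal.measurable_ofReal.comp (((measurable_const.add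
      ((_root_.continuous_abs.measurable.comp hdot).pow_const _))).add (hnrm'.pow_const _))
  · intro ξ
    rw [← ENNReal.ofReal_one]
    refine ENNReal.ofReal_le_ofReal ?_
    have h1 : 0 ≤ |∑ i, ξ i * e i| ^ (1 / 2 + ε) := by positivity
    have h2 : 0 ≤ nrm (ξ - (∑ i, ξ i * e i) • e) ^ (1 + ε) :=
      Real.rpow_nonneg (nrm_nonneg' _) _
    linarith
  · rw [lintegral_mul_const _ hVm]
    refine ENNReal.mul_lt_top ?_ ENNReal.ofReal_lt_top
    refine lt_of_le_of_lt (setLIntegral_le_lintegral _ _) ?_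
    unfold VV
    rw [lintegral_const_mul' _ _ ENNReal.ofReal_ne_top]
    refine ENNReal.mul_lt_top ENNReal.ofReal_lt_top ?_
    exact finite_integral_one_add_norm (by simpa using hε)
  · intro ρ hρ ω
    have e1 : ∀ ω' : Sp n, VV ε (nrm (ρ • (ω' : E n)).ofLp) = VV ε ρ := fun ω' => by
      rw [nrm_sph hρ]
    have e2 : ∫⁻ ω' in cap ρ 1 ω, VV ε (nrm (ρ • ω'.1).ofLp) ∂surf n =
        VV ε ρ * surf n (cap ρ 1 ω) := by
      rw [← setLIntegral_const]
      exact lintegral_congr fun ω' => e1 ω'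
    rw [e2, mul_left_comm]
    refine mul_le_mul_right ?_ _
    have h1 := cap_le hn hρ one_pos ω
    rw [one_pow, mul_one] at h1
    exact h1
  · intro k p hp
    obtain ⟨j, hj, rfl⟩ := mem_TT.1 hp
    refine ⟨he, ?_, th_nonneg _ _ _, measurable_const, Or.inl fun ξ => le_rfl⟩
    have h1 : (2 : ℝ) ^ j * 2 ≤ 2 ^ k := by
      rw [← pow_succ]
      exact pow_le_pow_right₀ (by norm_num) hj
    change (2 : ℝ) ^ j ≤ 2 ^ k / 2
    linarith
  · intro ξ
    set s : ℝ := ∑ i, ξ i * e i with hs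
    set q : ℝ := nrm (ξ - s • e) with hq
    set r : ℝ := nrm ξ with hr
    have hr0 : 0 ≤ r := nrm_nonneg' ξ
    have hq0 : 0 ≤ q := nrm_nonneg' _
    have hpy : r ^ 2 = s ^ 2 + q ^ 2 := pyth he ξ
    set W : ℝ := 1 + |s| ^ (1 / 2 + ε) + q ^ (1 + ε) with hW
    have hs1 : 0 ≤ |s| ^ (1 / 2 + ε) := by positivity
    have hq1 : 0 ≤ q ^ (1 + ε) := by positivity
    have hW1 : 1 ≤ W := by linarith
    rw [← ENNReal.ofReal_inv_of_pos (by linarith)]
    by_cases hr2 : r < 2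
    · refine le_trans ?_ le_self_add
      refine (ENNReal.ofReal_le_ofReal (inv_le_one_of_one_le₀ hW1)).trans (le_VV hε hr0 ?_)
      rw [one_mul]
      exact Real.rpow_le_rpow (by linarith) (by linarith) (by linarith)
    push Not at hr2
    obtain ⟨k, hk1, hk2⟩ := exists_nat_pow_near (x := r) (y := 2) (by linarith) (by norm_num)
    have hk : 1 ≤ k := by
      by_contra hcon
      have : k = 0 := by omega
      rw [this] at hk2
      norm_num at hk2
      linarith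
    have hkk : (2 : ℝ) ^ k = 2 * 2 ^ (k - 1) := by
      rw [← pow_succ', Nat.sub_add_cancel hk]
    have hkk' : (2 : ℝ) ^ (k + 1) = 4 * 2 ^ (k - 1) := by
      rw [pow_succ, hkk]; ring
    have hk0 : (0 : ℝ) < 2 ^ (k - 1) := by positivity
    by_cases hqk : (2 : ℝ) ^ (k - 1) < q
    · refine le_trans ?_ le_self_add
      refine le_VV hε hr0 ?_
      have h1 : (1 + r) ^ (1 + ε) ≤ 8 ^ (1 + ε) * q ^ (1 + ε) := by
        rw [← Real.mul_rpow (by norm_num) hq0]
        refine Real.rpow_le_rpow (by linarith) ?_ (by linarith)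
        nlinarith
      rw [inv_mul_le_iff₀ (by linarith), mul_comm]
      refine h1.trans (mul_le_mul_of_nonneg_left (by linarith) (by positivity))
    · push Not at hqk
      have hex : ∃ j, q ≤ (2 : ℝ) ^ j := ⟨k - 1, hqk⟩
      classical
      set j := Nat.find hex with hj
      have hj1 : q ≤ (2 : ℝ) ^ j := Nat.find_spec hex
      have hj2 : j ≤ k - 1 := Nat.find_min' hex hqk
      have hp : (e, (2 : ℝ) ^ j, th ε k j) ∈ TT e ε k := mem_TT.2 ⟨j, by omega, rfl⟩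
      have hξ : ξ ∈ tube k (e, (2 : ℝ) ^ j, th ε k j) := ⟨hk1, hk2, hj1⟩
      -- the size of the component along `e`
      have hsk : (2 : ℝ) ^ (k - 1) ≤ |s| := by
        refine le_of_sq_le_sq ?_ (abs_nonneg s)
        rw [sq_abs]
        have h1 : (2 * (2 : ℝ) ^ (k - 1)) ^ 2 ≤ r ^ 2 := by
          rw [← hkk]
          exact pow_le_pow_left₀ (by positivity) hk1 2
        have h2 : q ^ 2 ≤ ((2 : ℝ) ^ (k - 1)) ^ 2 := pow_le_pow_left₀ hq0 hqk 2
        nlinarith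
      have hcast : ((k - 1 : ℕ) : ℝ) = (k : ℝ) - 1 := by
        push_cast [hk]
        ring
      have hle : W⁻¹ ≤ th ε k j := by
        refine le_min ?_ ?_
        · rw [Real.rpow_neg (by norm_num)]
          refine inv_anti₀ (by positivity) ?_
          rw [Real.rpow_mul (by norm_num), ← hcast, Real.rpow_natCast]
          have h1 : ((2 : ℝ) ^ (k - 1)) ^ (1 / 2 + ε) ≤ |s| ^ (1 / 2 + ε) :=
            Real.rpow_le_rpow (by positivity) hsk (by linarith)
          linarith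
        · rcases Nat.eq_zero_or_pos j with hj0 | hj0
          · rw [hj0]
            refine (inv_le_one_of_one_le₀ hW1).trans ?_
            refine Real.one_le_rpow (by norm_num) ?_
            push_cast
            linarith
          · have h1 : (2 : ℝ) ^ (j - 1) < q := by
              have := Nat.find_min hex (m := j - 1) (by omega)
              exact not_le.1 this
            have hcast' : ((j - 1 : ℕ) : ℝ) = (j : ℝ) - 1 := by
              push_cast [show 1 ≤ j from hj0]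
              ring
            rw [Real.rpow_neg (by norm_num)]
            refine inv_anti₀ (by positivity) ?_
            rw [Real.rpow_mul (by norm_num), ← hcast', Real.rpow_natCast]
            have h2 : ((2 : ℝ) ^ (j - 1)) ^ (1 + ε) ≤ q ^ (1 + ε) :=
              Real.rpow_le_rpow (by positivity) h1.le (by linarith)
            linarith
      refine (ENNReal.ofReal_le_ofReal hle).trans (le_trans ?_ le_add_self)
      refine le_trans ?_ (ENNReal.le_tsum k)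
      refine le_trans ?_ (Finset.single_le_sum (f := fun p : (Fin n → ℝ) × ℝ × ℝ =>
        (tube k p).indicator (fun _ => ENNReal.ofReal p.2.2) ξ) (fun _ _ => zero_le) hp)
      rw [Set.indicator_of_mem hξ]

end Vale.Agent.P076.R2.H43
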